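import Vale.Agent.Lib.P034.helper6.Mat.Poly

/-!
# The point of least square norm in the base polytope

Its top level set `U` (value `u`) satisfies `u * |U| = r(univ) - r(univ \ U)`, and every full-rank
set meets `U` in at least that many elements.
-/

namespace Vale.Agent.Lib.P034.helper6.Mat

open Finset

variable {α : Type*} [Fintype α] [DecidableEq α]

theorem sum_sq_move (x : α → ℝ) {i j : α} (hij : i ≠ j) (ε : ℝ) :
    ∑ l, (move x i j ε l) ^ 2 = ∑ l, (x l) ^ 2 + 2 * ε * (x i - x j) + 2 * ε ^ 2 := by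
  classical
  have hpt : ∀ l, (move x i j ε l) ^ 2
      = (x l) ^ 2 + (if l = i then 2 * ε * x i + ε ^ 2 else 0)
        + (if l = j then -(2 * ε * x j) + ε ^ 2 else 0) := by
    intro l
    by_cases h1 : l = i
    · rw [h1, move_self x hij]
      simp [hij]
      ring
    · by_cases h2 : l = j
      · rw [h2, move_other x hij]
        simp [hij.symm]
        ring
      · rw [move_ne x i j ε h1 h2]
        simp [h1, h2]
  rw [Finset.sum_congr rfl (fun l _ => hpt l), Finset.sum_add_distrib, Finset.sum_add_distrib]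
  simp only [Finset.sum_ite_eq', Finset.mem_univ, if_true]
  ring

theorem isCompact_inP {r : Finset α → ℕ} (hr : IsRank r) : IsCompact {x : α → ℝ | InP r x} := by
  have hsub : {x : α → ℝ | InP r x} ⊆ Set.pi Set.univ (fun _ : α => Set.Icc (0 : ℝ) 1) := by
    intro x hx i _
    exact ⟨hx.1 i, le_one_of_inP hr hx i⟩
  have hcl : IsClosed {x : α → ℝ | InP r x} := by
    have h1 : {x : α → ℝ | InP r x}
        = (⋂ i, {x : α → ℝ | 0 ≤ x i}) ∩ ((⋂ A : Finset α, {x : α → ℝ | ∑ i ∈ A, x i ≤ r A})
          ∩ {x : α → ℝ | ∑ i, x i = r univ}) := by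
      ext x
      simp [InP]
    rw [h1]
    refine IsClosed.inter (isClosed_iInter fun i => ?_) (IsClosed.inter (isClosed_iInter fun A => ?_) ?_)
    · exact isClosed_le continuous_const (continuous_apply i)
    · exact isClosed_le (continuous_finsetSum _ fun i _ => continuous_apply i) continuous_const
    · exact isClosed_eq (continuous_finsetSum _ fun i _ => continuous_apply i) continuous_const
  exact IsCompact.of_isClosed_subset (isCompact_univ_pi fun _ => isCompact_Icc) hcl hsub

theorem exists_min_sq {r : Finset α → ℕ} (hr : IsRank r) (hne : ∃ x, InP r x) :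
    ∃ x : α → ℝ, InP r x ∧ ∀ y : α → ℝ, InP r y → ∑ l, (x l) ^ 2 ≤ ∑ l, (y l) ^ 2 := by
  have hcont : ContinuousOn (fun x : α → ℝ => ∑ l, (x l) ^ 2) {x : α → ℝ | InP r x} :=
    (continuous_finsetSum _ fun l _ => (continuous_apply l).pow 2).continuousOn
  obtain ⟨x, hx, hmin⟩ := (isCompact_inP hr).exists_isMinOn hne hcont
  exact ⟨x, hx, fun y hy => hmin hy⟩

theorem tight_biUnion {r : Finset α → ℕ} (hr : IsRank r) {x : α → ℝ} (hx : InP r x)
    (W : Finset α) (f : α → Finset α) (hf : ∀ j ∈ W, Tight r x (f j)) :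
    Tight r x (W.biUnion f) := by
  classical
  induction W using Finset.induction_on with
  | empty => simpa using tight_empty hr x
  | insert a s ha ih =>
    rw [Finset.biUnion_insert]
    exact (tight_union_inter hr hx (hf a (Finset.mem_insert_self a s))
      (ih fun j hj => hf j (Finset.mem_insert_of_mem hj))).1

/-- The certificate extracted from the point of least square norm. -/
theorem exists_certificate {r : Finset α → ℕ} (hr : IsRank r) (hne : ∃ x, InP r x)
    (hpos : 0 < r univ) :
    ∃ (x : α → ℝ) (U : Finset α) (u : ℝ) (k : ℕ), InP r x ∧ 0 < u ∧ (∀ i, x i ≤ u) ∧ 0 < k ∧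
      (k : ℝ) = u * U.card ∧ ∀ H : Finset α, r H = r univ → k ≤ (H ∩ U).card := by
  classical
  obtain ⟨x, hx, hmin⟩ := exists_min_sq hr hne
  have hsumpos : (0 : ℝ) < ∑ i, x i := by
    rw [hx.2.2]
    exact_mod_cast hpos
  obtain ⟨i₁, -, hi₁⟩ : ∃ i ∈ (univ : Finset α), (0 : ℝ) < x i := by
    by_contra hcon
    push Not at hcon
    have : ∑ i, x i ≤ 0 := Finset.sum_nonpos (fun i hi => hcon i hi)
    linarith
  obtain ⟨i₀, -, hi₀⟩ := Finset.exists_max_image (univ : Finset α) x ⟨i₁, Finset.mem_univ _⟩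
  have hu : 0 < x i₀ := lt_of_lt_of_le hi₁ (hi₀ i₁ (Finset.mem_univ _))
  obtain ⟨U, hU⟩ : ∃ U : Finset α, U = univ.filter (fun i => x i = x i₀) := ⟨_, rfl⟩
  obtain ⟨W, hW⟩ : ∃ W : Finset α, W = univ.filter (fun i => ¬ x i = x i₀) := ⟨_, rfl⟩
  have hmemU : ∀ i, i ∈ U ↔ x i = x i₀ := by intro i; rw [hU]; simp
  have hmemW : ∀ i, i ∈ W ↔ ¬ x i = x i₀ := by intro i; rw [hW]; simp
  -- the smallest tight set of a low coordinate avoids the top level set
  have hlow : ∀ j ∈ W, minTight r x j ⊆ W := by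
    intro j hj i hi
    rw [hmemW] at hj ⊢
    intro hiu
    have hji : j ≠ i := fun h => hj (h ▸ hiu)
    have hlt : x j < x i := by
      rw [hiu]
      exact lt_of_le_of_ne (hi₀ j (Finset.mem_univ _)) hj
    have hT : ∀ A : Finset α, Tight r x A → j ∈ A → i ∈ A :=
      fun A hA hjA => (minTight_subset hA hjA) hi
    have hxi : 0 < x i := by rw [hiu]; exact hu
    obtain ⟨ε, hε, hP, -⟩ := exists_max_move hx hji hT hxi
    have hε' : 0 < min ε ((x i - x j) / 2) := lt_min hε (by linarith)
    have hy := hP (min ε ((x i - x j) / 2)) hε'.le (min_le_left _ _)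
    have h1 := hmin _ hy
    rw [sum_sq_move x hji] at h1
    have h2 : min ε ((x i - x j) / 2) ≤ (x i - x j) / 2 := min_le_right _ _
    nlinarith
  have hWt : Tight r x W := by
    have h1 : W.biUnion (minTight r x) = W := by
      apply Finset.Subset.antisymm
      · intro i hi
        obtain ⟨j, hj, hij⟩ := Finset.mem_biUnion.mp hi
        exact hlow j hj hij
      · intro j hj
        exact Finset.mem_biUnion.mpr ⟨j, hj, mem_minTight j⟩
    rw [← h1]
    exact tight_biUnion hr hx W _ (fun j _ => tight_minTight hr hx j)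
  have hrW : r W ≤ r univ := hr.mono W univ (Finset.subset_univ W)
  have hsplit : ∑ i ∈ U, x i + ∑ i ∈ W, x i = ∑ i, x i := by
    rw [hU, hW]
    exact Finset.sum_filter_add_sum_filter_not univ (fun i => x i = x i₀) x
  have hUsum : ∑ i ∈ U, x i = x i₀ * U.card := by
    rw [Finset.sum_congr rfl (fun i hi => (hmemU i).mp hi), Finset.sum_const, nsmul_eq_mul]
    ring
  have hk : ((r univ - r W : ℕ) : ℝ) = x i₀ * U.card := by
    rw [Nat.cast_sub hrW]
    unfold Tight at hWt
    have h3 := hx.2.2
    linarith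
  refine ⟨x, U, x i₀, r univ - r W, hx, hu, fun i => hi₀ i (Finset.mem_univ _), ?_, hk, ?_⟩
  · have h4 : (0 : ℝ) < x i₀ * U.card := by
      have h5 : (0 : ℝ) < U.card := by
        have : 0 < U.card := Finset.card_pos.mpr ⟨i₀, (hmemU i₀).mpr rfl⟩
        exact_mod_cast this
      positivity
    rw [← hk] at h4
    exact_mod_cast h4
  · intro H hH
    have h6 : H ⊆ W ∪ (H ∩ U) := by
      intro i hi
      by_cases h7 : x i = x i₀
      · exact Finset.mem_union_right _ (Finset.mem_inter.mpr ⟨hi, (hmemU i).mpr h7⟩)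
      · exact Finset.mem_union_left _ ((hmemW i).mpr h7)
    have h8 := hr.mono _ _ h6
    have h9 := hr.submod W (H ∩ U)
    have h10 := hr.le_card (H ∩ U)
    omega

end Vale.Agent.Lib.P034.helper6.Mat
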