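import Vale.Agent.Lib.P034.helper6.Mat.Main

/-!
# The rank function of a finite matroid

The rank function of a matroid on a finite type satisfies the rank properties, the indicator of a
base lies in its base polytope, and spanning sets are the sets of full rank.
-/

namespace Vale.Agent.Lib.P034.helper6.Mat

open Finset

variable {α : Type*} [Fintype α] [DecidableEq α]

/-- The rank of a finite set in a matroid, as a natural number. -/
noncomputable def rk (M : Matroid α) (A : Finset α) : ℕ := (M.eRk (A : Set α)).toNat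

theorem eRk_ne_top (M : Matroid α) (A : Set α) : M.eRk A ≠ ⊤ := by
  have h1 := M.eRk_le_encard A
  have h2 : A.encard ≠ ⊤ := Set.encard_ne_top_iff.mpr (Set.toFinite A)
  exact ne_top_of_le_ne_top h2 h1

theorem coe_rk (M : Matroid α) (A : Finset α) : ((rk M A : ℕ) : ℕ∞) = M.eRk (A : Set α) :=
  ENat.natCast_toNat (eRk_ne_top M _)

theorem isRank_rk (M : Matroid α) : IsRank (rk M) where
  empty := by
    unfold rk
    simp
  mono := by
    intro A B hAB
    have h := M.eRk_mono (Finset.coe_subset.mpr hAB)
    have h' : ((rk M A : ℕ) : ℕ∞) ≤ (rk M B : ℕ) := by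
      rw [coe_rk, coe_rk]
      exact h
    exact_mod_cast h'
  le_card := by
    intro A
    have h := M.eRk_le_encard (A : Set α)
    rw [Set.encard_coe_eq_coe_finsetCard] at h
    have h' : ((rk M A : ℕ) : ℕ∞) ≤ (A.card : ℕ) := by
      rw [coe_rk]
      exact h
    exact_mod_cast h'
  submod := by
    intro A B
    have h := M.eRk_inter_add_eRk_union_le (A : Set α) (B : Set α)
    rw [← Finset.coe_inter, ← Finset.coe_union, ← coe_rk, ← coe_rk, ← coe_rk, ← coe_rk] at h
    have h' : rk M (A ∩ B) + rk M (A ∪ B) ≤ rk M A + rk M B := by exact_mod_cast h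
    omega

theorem exists_inP (M : Matroid α) : ∃ x : α → ℝ, InP (rk M) x := by
  classical
  obtain ⟨B, hB⟩ := M.exists_isBase
  obtain ⟨Bf, hBf⟩ : ∃ Bf : Finset α, (Bf : Set α) = B := ⟨(Set.toFinite B).toFinset, by simp⟩
  refine ⟨fun i => if i ∈ Bf then 1 else 0, fun i => by dsimp only; split_ifs <;> norm_num, ?_, ?_⟩
  · intro A
    rw [Finset.sum_boole, Finset.filter_mem_eq_inter]
    have h1 : M.Indep ((A ∩ Bf : Finset α) : Set α) := by
      rw [Finset.coe_inter, hBf]
      exact hB.indep.subset Set.inter_subset_right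
    have h2 := h1.eRk_eq_encard
    rw [Set.encard_coe_eq_coe_finsetCard] at h2
    have hsub : ((A ∩ Bf : Finset α) : Set α) ⊆ (A : Set α) := by
      rw [Finset.coe_inter]
      exact Set.inter_subset_left
    have h3 := M.eRk_mono hsub
    rw [h2, ← coe_rk] at h3
    have h4 : (A ∩ Bf).card ≤ rk M A := by exact_mod_cast h3
    exact_mod_cast h4
  · rw [Finset.sum_boole, Finset.filter_mem_eq_inter, Finset.univ_inter]
    have h1 := hB.encard_eq_eRank
    rw [← hBf, Set.encard_coe_eq_coe_finsetCard, ← M.eRk_univ_eq, ← Finset.coe_univ,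
      ← coe_rk] at h1
    have h2 : Bf.card = rk M univ := by exact_mod_cast h1
    rw [h2]

theorem spanning_iff_rk (M : Matroid α) (hE : M.E = Set.univ) (H : Finset α) :
    M.Spanning (H : Set α) ↔ rk M H = rk M univ := by
  rw [Matroid.spanning_iff_eRk_le']
  constructor
  · rintro ⟨h, -⟩
    have h1 : M.eRk (H : Set α) ≤ M.eRank := by
      rw [← M.eRk_univ_eq]
      exact M.eRk_mono (Set.subset_univ _)
    have h2 := le_antisymm h1 h
    rw [← M.eRk_univ_eq, ← Finset.coe_univ, ← coe_rk, ← coe_rk] at h2
    exact_mod_cast h2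
  · intro h
    refine ⟨?_, by rw [hE]; exact Set.subset_univ _⟩
    rw [← M.eRk_univ_eq, ← Finset.coe_univ, ← coe_rk, ← coe_rk, h]

end Vale.Agent.Lib.P034.helper6.Mat
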