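import Vale.Agent.Lib.P034.helper6.Mat.Pipage
import Vale.Agent.Lib.P034.helper6.Mat.Certificate

/-!
# Fractional covers of the full-rank sets of a rank function

If the full-rank sets of a matroid rank function admit a fractional cover of cost at most `1/2`
at `p`, they admit a cover of cost at most `1/2` at `p / 6`.
-/

namespace Vale.Agent.Lib.P034.helper6.Mat

open Finset

variable {α : Type*} [Fintype α] [DecidableEq α]

theorem pow_self_le (D : ℕ) : (D : ℝ) ^ D ≤ 3 ^ D * (D.factorial : ℝ) := by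
  have h1 := Real.pow_div_factorial_le_exp (D : ℝ) (Nat.cast_nonneg D) D
  have h2 : Real.exp (D : ℝ) ≤ 3 ^ D := by
    have : Real.exp (D : ℝ) = Real.exp 1 ^ D := by
      rw [← Real.exp_nat_mul, mul_one]
    rw [this]
    exact pow_le_pow_left₀ (Real.exp_pos 1).le Real.exp_one_lt_three.le D
  have hpos : (0 : ℝ) < (D.factorial : ℝ) := by exact_mod_cast Nat.factorial_pos D
  rw [div_le_iff₀ hpos] at h1
  calc (D : ℝ) ^ D ≤ Real.exp D * D.factorial := h1
    _ ≤ 3 ^ D * D.factorial := by gcongr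

/-- The fractional side: a fractional cover has weight at least one at the largest coordinate. -/
theorem frac_bound {r : Finset α → ℕ} {x : α → ℝ} {μ : Finset α → ℝ} (hμ : Good r x μ)
    (hx0 : ∀ i, 0 ≤ x i) {u : ℝ} (hxu : ∀ i, x i ≤ u)
    (g : Finset α → ℝ) (hg : ∀ S, 0 ≤ g S)
    (hcov : ∀ H : Finset α, r H = r univ → 1 ≤ ∑ S ∈ H.powerset, g S) :
    1 ≤ ∑ S : Finset α, g S * u ^ S.card := by
  classical
  have h1 : (1 : ℝ) ≤ ∑ B : Finset α, μ B * ∑ S ∈ B.powerset, g S := by
    rw [← hμ.2.1]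
    apply Finset.sum_le_sum
    intro B _
    by_cases hB : μ B = 0
    · simp [hB]
    · have h3 := hcov B (hμ.2.2.1 B hB)
      have h0 := hμ.1 B
      nlinarith
  have hcomm : ∀ (B S : Finset α), B ∈ (univ : Finset (Finset α)) ∧ S ∈ B.powerset
      ↔ B ∈ univ.filter (fun B => S ⊆ B) ∧ S ∈ (univ : Finset (Finset α)) := by
    intro B S
    simp [Finset.mem_powerset]
  have h2 : ∑ B : Finset α, μ B * ∑ S ∈ B.powerset, g S
      = ∑ S : Finset α, g S * ∑ B ∈ univ.filter (fun B => S ⊆ B), μ B := by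
    simp_rw [Finset.mul_sum]
    rw [Finset.sum_comm' hcomm]
    apply Finset.sum_congr rfl
    intro S _
    apply Finset.sum_congr rfl
    intro B _
    ring
  have h3 : ∀ S : Finset α,
      g S * ∑ B ∈ univ.filter (fun B => S ⊆ B), μ B ≤ g S * u ^ S.card := by
    intro S
    apply mul_le_mul_of_nonneg_left _ (hg S)
    calc ∑ B ∈ univ.filter (fun B => S ⊆ B), μ B ≤ ∏ i ∈ S, x i := hμ.2.2.2 S
      _ ≤ ∏ _i ∈ S, u := Finset.prod_le_prod (fun i _ => hx0 i) (fun i _ => hxu i)
      _ = u ^ S.card := by rw [Finset.prod_const]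
  calc (1 : ℝ) ≤ ∑ B : Finset α, μ B * ∑ S ∈ B.powerset, g S := h1
    _ = ∑ S : Finset α, g S * ∑ B ∈ univ.filter (fun B => S ⊆ B), μ B := h2
    _ ≤ ∑ S : Finset α, g S * u ^ S.card := Finset.sum_le_sum (fun S _ => h3 S)

/-- The main statement for an abstract rank function. -/
theorem matroid_abstract {r : Finset α → ℕ} (hr : IsRank r) (hne : ∃ x, InP r x)
    (g : Finset α → ℝ) (hg : ∀ S, 0 ≤ g S) (p : ℝ) (hp : 0 ≤ p)
    (hcov : ∀ H : Finset α, r H = r univ → 1 ≤ ∑ S ∈ H.powerset, g S)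
    (hcost : ∑ S : Finset α, g S * p ^ S.card ≤ 1 / 2) :
    ∃ G : Finset (Finset α), (∀ H : Finset α, r H = r univ → ∃ S ∈ G, S ⊆ H) ∧
      ∑ S ∈ G, (p / 6) ^ S.card ≤ 1 / 2 := by
  classical
  rcases Nat.eq_zero_or_pos (r univ) with h0 | hpos
  · exfalso
    have h1 := hcov ∅ (by rw [hr.empty, h0])
    simp at h1
    have h2 : g ∅ * p ^ (∅ : Finset α).card ≤ ∑ S : Finset α, g S * p ^ S.card :=
      Finset.single_le_sum (f := fun S : Finset α => g S * p ^ S.card)
        (fun S _ => mul_nonneg (hg S) (pow_nonneg hp _)) (Finset.mem_univ ∅)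
    simp at h2
    linarith
  · obtain ⟨x, U, u, k, hx, hu, hxu, hk, hkU, hmeet⟩ := exists_certificate hr hne hpos
    obtain ⟨μ, hμ⟩ := exists_good hr hx
    have hfrac := frac_bound hμ hx.1 hxu g hg hcov
    have hpu : p < u := by
      by_contra hcon
      push Not at hcon
      have h3 : ∑ S : Finset α, g S * u ^ S.card ≤ ∑ S : Finset α, g S * p ^ S.card :=
        Finset.sum_le_sum (fun S _ =>
          mul_le_mul_of_nonneg_left (pow_le_pow_left₀ hu.le hcon _) (hg S))
      linarith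
    refine ⟨U.powersetCard k, ?_, ?_⟩
    · intro H hH
      obtain ⟨S, hS, hSk⟩ := Finset.exists_subset_card_eq (hmeet H hH)
      exact ⟨S, Finset.mem_powersetCard.mpr ⟨hS.trans Finset.inter_subset_right, hSk⟩,
        hS.trans Finset.inter_subset_left⟩
    · have h1 : ∑ S ∈ U.powersetCard k, (p / 6) ^ S.card
          = (U.card.choose k : ℝ) * (p / 6) ^ k := by
        rw [Finset.sum_congr rfl
          (fun S hS => by rw [(Finset.mem_powersetCard.mp hS).2]),
          Finset.sum_const, Finset.card_powersetCard, nsmul_eq_mul]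
      rw [h1]
      have h2 : (U.card.choose k : ℝ) ≤ (U.card : ℝ) ^ k / (k.factorial : ℝ) :=
        Nat.choose_le_pow_div k U.card
      have h3 : (p / 6) ^ k ≤ (u / 6) ^ k :=
        pow_le_pow_left₀ (by positivity) (by linarith) k
      have hkf : (0 : ℝ) < (k.factorial : ℝ) := by exact_mod_cast Nat.factorial_pos k
      have h4 : (U.card : ℝ) ^ k / (k.factorial : ℝ) * (u / 6) ^ k
          = (k : ℝ) ^ k / ((k.factorial : ℝ) * 6 ^ k) := by
        rw [hkU, mul_pow, div_pow]
        field_simp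
      have h5 := pow_self_le k
      have h6 : (k : ℝ) ^ k / ((k.factorial : ℝ) * 6 ^ k) ≤ (1 / 2) ^ k := by
        rw [div_le_iff₀ (by positivity)]
        have h7 : (6 : ℝ) ^ k = 2 ^ k * 3 ^ k := by
          rw [← mul_pow]
          norm_num
        have h8 : ((1 : ℝ) / 2) ^ k * ((k.factorial : ℝ) * 6 ^ k) = 3 ^ k * (k.factorial : ℝ) := by
          rw [h7, one_div, inv_pow]
          field_simp
        rw [h8]
        exact h5
      have h9 : ((1 : ℝ) / 2) ^ k ≤ 1 / 2 := by
        calc ((1 : ℝ) / 2) ^ k ≤ (1 / 2) ^ 1 :=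
              pow_le_pow_of_le_one (by norm_num) (by norm_num) hk
          _ = 1 / 2 := by norm_num
      calc (U.card.choose k : ℝ) * (p / 6) ^ k
          ≤ (U.card : ℝ) ^ k / (k.factorial : ℝ) * (u / 6) ^ k := by
            apply mul_le_mul h2 h3 (by positivity) (by positivity)
        _ = (k : ℝ) ^ k / ((k.factorial : ℝ) * 6 ^ k) := h4
        _ ≤ (1 / 2) ^ k := h6
        _ ≤ 1 / 2 := h9

end Vale.Agent.Lib.P034.helper6.Mat
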