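import Vale.Agent.Lib.P034.helper6.Mat.Poly

/-!
# Negatively correlated rounding in the base polytope

Every point of the base polytope of a rank function is dominated, in the sense of all product
moments, by a probability vector on full-rank sets.
-/

namespace Vale.Agent.Lib.P034.helper6.Mat

open Finset

variable {α : Type*} [Fintype α] [DecidableEq α]

/-- A probability vector on subsets, supported on full-rank sets, whose upper-set masses are
bounded by the products of the coordinates of `x`. -/
def Good (r : Finset α → ℕ) (x : α → ℝ) (μ : Finset α → ℝ) : Prop :=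
  (∀ B, 0 ≤ μ B) ∧ ∑ B, μ B = 1 ∧ (∀ B, μ B ≠ 0 → r B = r univ) ∧
    ∀ S : Finset α, ∑ B ∈ univ.filter (fun B => S ⊆ B), μ B ≤ ∏ i ∈ S, x i

open Classical in
/-- The coordinates strictly between `0` and `1`. -/
noncomputable def fracSet (x : α → ℝ) : Finset α := univ.filter (fun i => 0 < x i ∧ x i < 1)

open Classical in
/-- The sets that are not tight. -/
noncomputable def looseSets (r : Finset α → ℕ) (x : α → ℝ) : Finset (Finset α) :=
  univ.filter (fun A => ¬ Tight r x A)

/-- The induction measure. -/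
noncomputable def weight (r : Finset α → ℕ) (x : α → ℝ) : ℕ :=
  (fracSet x).card * (2 ^ Fintype.card α + 1) + (looseSets r x).card

theorem mem_fracSet {x : α → ℝ} {i : α} : i ∈ fracSet x ↔ 0 < x i ∧ x i < 1 := by
  classical
  unfold fracSet
  simp

theorem mem_looseSets {r : Finset α → ℕ} {x : α → ℝ} {A : Finset α} :
    A ∈ looseSets r x ↔ ¬ Tight r x A := by
  classical
  unfold looseSets
  simp

theorem good_of_integral {r : Finset α → ℕ} (hr : IsRank r) {x : α → ℝ} (hx : InP r x)
    (hint : ∀ i, x i = 0 ∨ x i = 1) : ∃ μ, Good r x μ := by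
  classical
  obtain ⟨B, hB⟩ : ∃ B : Finset α, B = univ.filter (fun i => x i = 1) := ⟨_, rfl⟩
  have hmemB : ∀ i, i ∈ B ↔ x i = 1 := by intro i; rw [hB]; simp
  have hrB : r B = r univ := by
    have h1 : ∑ i ∈ B, x i = ∑ i, x i := by
      apply Finset.sum_subset (Finset.subset_univ B)
      intro i _ hi
      rcases hint i with h | h
      · exact h
      · exact absurd ((hmemB i).mpr h) hi
    have h2 := hx.2.1 B
    rw [h1, hx.2.2] at h2
    have h3 : r univ ≤ r B := by exact_mod_cast h2
    exact le_antisymm (hr.mono B univ (Finset.subset_univ B)) h3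
  refine ⟨fun B' => if B' = B then 1 else 0, ?_, ?_, ?_, ?_⟩
  · intro B'
    dsimp only
    split_ifs <;> norm_num
  · simp
  · intro B' hB'
    have : B' = B := by
      by_contra h
      simp [h] at hB'
    rw [this]
    exact hrB
  · intro S
    by_cases hS : S ⊆ B
    · have h1 : ∏ i ∈ S, x i = 1 := Finset.prod_eq_one (fun i hi => (hmemB i).mp (hS hi))
      rw [h1]
      have h2 : ∑ B' ∈ univ.filter (fun B' => S ⊆ B'), (if B' = B then (1 : ℝ) else 0)
          ≤ ∑ B' : Finset α, (if B' = B then (1 : ℝ) else 0) := by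
        apply Finset.sum_le_sum_of_subset_of_nonneg (Finset.filter_subset _ _)
        intro B' _ _
        split_ifs <;> norm_num
      simpa using h2
    · have h1 : ∑ B' ∈ univ.filter (fun B' => S ⊆ B'), (if B' = B then (1 : ℝ) else 0) = 0 := by
        apply Finset.sum_eq_zero
        intro B' hB'
        have hSB' : S ⊆ B' := by simpa using hB'
        have : B' ≠ B := fun h => hS (h ▸ hSB')
        simp [this]
      rw [h1]
      exact Finset.prod_nonneg (fun i _ => hx.1 i)

theorem weight_move_lt {r : Finset α → ℕ} {x : α → ℝ} {i j : α}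
    (hi : i ∈ fracSet x) (hj : j ∈ fracSet x)
    (hT1 : ∀ A : Finset α, Tight r x A → i ∈ A → j ∈ A)
    (hT2 : ∀ A : Finset α, Tight r x A → j ∈ A → i ∈ A) {ε : ℝ}
    (hend : move x i j ε j = 0 ∨ ∃ A : Finset α, i ∈ A ∧ j ∉ A ∧ Tight r (move x i j ε) A) :
    weight r (move x i j ε) < weight r x := by
  classical
  have hfrac : fracSet (move x i j ε) ⊆ fracSet x := by
    intro l hl
    by_cases h1 : l = i
    · rw [h1]; exact hi
    · by_cases h2 : l = j
      · rw [h2]; exact hj
      · rw [mem_fracSet] at hl ⊢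
        rwa [move_ne x i j ε h1 h2] at hl
  have hloose : looseSets r (move x i j ε) ⊆ looseSets r x := by
    intro A hA
    rw [mem_looseSets] at hA ⊢
    intro hAt
    apply hA
    unfold Tight at hAt ⊢
    rw [sum_move]
    by_cases hiA : i ∈ A
    · have hjA := hT1 A hAt hiA
      simp [hiA, hjA, hAt]
    · have hjA : j ∉ A := fun h => hiA (hT2 A hAt h)
      simp [hiA, hjA, hAt]
  have hK : (looseSets r (move x i j ε)).card ≤ 2 ^ Fintype.card α := by
    calc (looseSets r (move x i j ε)).card ≤ Fintype.card (Finset α) := Finset.card_le_univ _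
      _ = 2 ^ Fintype.card α := Fintype.card_finset
  unfold weight
  generalize 2 ^ Fintype.card α = M at hK ⊢
  rcases hend with h0 | ⟨A, hiA, hjA, hAt⟩
  · have hlt : (fracSet (move x i j ε)).card < (fracSet x).card := by
      apply Finset.card_lt_card
      refine ⟨hfrac, fun hsub => ?_⟩
      have := hsub hj
      rw [mem_fracSet, h0] at this
      exact lt_irrefl _ this.1
    have h1 : (fracSet (move x i j ε)).card + 1 ≤ (fracSet x).card := hlt
    have h2 := Nat.mul_le_mul_right (M + 1) h1
    rw [Nat.add_mul, Nat.one_mul] at h2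
    omega
  · have hlt : (looseSets r (move x i j ε)).card < (looseSets r x).card := by
      apply Finset.card_lt_card
      refine ⟨hloose, fun hsub => ?_⟩
      have hA1 : A ∈ looseSets r x := by
        rw [mem_looseSets]
        intro hAt'
        exact hjA (hT1 A hAt' hiA)
      have := hsub hA1
      rw [mem_looseSets] at this
      exact this hAt
    have h1 := Finset.card_le_card hfrac
    have h2 := Nat.mul_le_mul_right (M + 1) h1
    omega

theorem prod_combine {x : α → ℝ} (hx0 : ∀ l, 0 ≤ x l) {i j : α} (hij : i ≠ j) {ε₁ ε₂ : ℝ}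
    (h1 : 0 ≤ ε₁) (h2 : 0 ≤ ε₂) (S : Finset α) :
    ε₂ * ∏ l ∈ S, move x i j ε₁ l + ε₁ * ∏ l ∈ S, move x j i ε₂ l
      ≤ (ε₁ + ε₂) * ∏ l ∈ S, x l := by
  classical
  by_cases hi : i ∈ S <;> by_cases hj : j ∈ S
  · have hj' : j ∈ S.erase i := Finset.mem_erase.mpr ⟨hij.symm, hj⟩
    have e : ∀ f : α → ℝ, ∏ l ∈ S, f l = f i * (f j * ∏ l ∈ (S.erase i).erase j, f l) := by
      intro f
      rw [Finset.mul_prod_erase _ f hj', Finset.mul_prod_erase _ f hi]
    have hne : ∀ l ∈ (S.erase i).erase j, l ≠ i ∧ l ≠ j := by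
      intro l hl
      have h3 := Finset.mem_erase.mp hl
      have h4 := Finset.mem_erase.mp h3.2
      exact ⟨h4.1, h3.1⟩
    have c1 : ∏ l ∈ (S.erase i).erase j, move x i j ε₁ l = ∏ l ∈ (S.erase i).erase j, x l :=
      Finset.prod_congr rfl (fun l hl => move_ne x i j ε₁ (hne l hl).1 (hne l hl).2)
    have c2 : ∏ l ∈ (S.erase i).erase j, move x j i ε₂ l = ∏ l ∈ (S.erase i).erase j, x l :=
      Finset.prod_congr rfl (fun l hl => move_ne x j i ε₂ (hne l hl).2 (hne l hl).1)
    rw [e (move x i j ε₁), e (move x j i ε₂), e x, c1, c2, move_self x hij, move_other x hij,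
      move_self x hij.symm, move_other x hij.symm]
    have hP : 0 ≤ ∏ l ∈ (S.erase i).erase j, x l := Finset.prod_nonneg (fun l _ => hx0 l)
    generalize ∏ l ∈ (S.erase i).erase j, x l = P at hP ⊢
    have key : (ε₁ + ε₂) * (x i * (x j * P))
        - (ε₂ * ((x i + ε₁) * ((x j - ε₁) * P)) + ε₁ * ((x i - ε₂) * ((x j + ε₂) * P)))
        = (ε₁ + ε₂) * ε₁ * ε₂ * P := by ring
    have hpos : 0 ≤ (ε₁ + ε₂) * ε₁ * ε₂ * P := by positivity
    linarith
  · have e : ∀ f : α → ℝ, ∏ l ∈ S, f l = f i * ∏ l ∈ S.erase i, f l := by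
      intro f
      rw [Finset.mul_prod_erase _ f hi]
    have hne : ∀ l ∈ S.erase i, l ≠ i ∧ l ≠ j := by
      intro l hl
      have h3 := Finset.mem_erase.mp hl
      exact ⟨h3.1, fun h => hj (h ▸ h3.2)⟩
    have c1 : ∏ l ∈ S.erase i, move x i j ε₁ l = ∏ l ∈ S.erase i, x l :=
      Finset.prod_congr rfl (fun l hl => move_ne x i j ε₁ (hne l hl).1 (hne l hl).2)
    have c2 : ∏ l ∈ S.erase i, move x j i ε₂ l = ∏ l ∈ S.erase i, x l :=
      Finset.prod_congr rfl (fun l hl => move_ne x j i ε₂ (hne l hl).2 (hne l hl).1)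
    rw [e (move x i j ε₁), e (move x j i ε₂), e x, c1, c2, move_self x hij,
      move_other x hij.symm]
    apply le_of_eq
    ring
  · have e : ∀ f : α → ℝ, ∏ l ∈ S, f l = f j * ∏ l ∈ S.erase j, f l := by
      intro f
      rw [Finset.mul_prod_erase _ f hj]
    have hne : ∀ l ∈ S.erase j, l ≠ i ∧ l ≠ j := by
      intro l hl
      have h3 := Finset.mem_erase.mp hl
      exact ⟨fun h => hi (h ▸ h3.2), h3.1⟩
    have c1 : ∏ l ∈ S.erase j, move x i j ε₁ l = ∏ l ∈ S.erase j, x l :=
      Finset.prod_congr rfl (fun l hl => move_ne x i j ε₁ (hne l hl).1 (hne l hl).2)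
    have c2 : ∏ l ∈ S.erase j, move x j i ε₂ l = ∏ l ∈ S.erase j, x l :=
      Finset.prod_congr rfl (fun l hl => move_ne x j i ε₂ (hne l hl).2 (hne l hl).1)
    rw [e (move x i j ε₁), e (move x j i ε₂), e x, c1, c2, move_other x hij,
      move_self x hij.symm]
    apply le_of_eq
    ring
  · have hne : ∀ l ∈ S, l ≠ i ∧ l ≠ j := by
      intro l hl
      exact ⟨fun h => hi (h ▸ hl), fun h => hj (h ▸ hl)⟩
    have c1 : ∏ l ∈ S, move x i j ε₁ l = ∏ l ∈ S, x l :=
      Finset.prod_congr rfl (fun l hl => move_ne x i j ε₁ (hne l hl).1 (hne l hl).2)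
    have c2 : ∏ l ∈ S, move x j i ε₂ l = ∏ l ∈ S, x l :=
      Finset.prod_congr rfl (fun l hl => move_ne x j i ε₂ (hne l hl).2 (hne l hl).1)
    rw [c1, c2]
    apply le_of_eq
    ring

theorem exists_frac_partner {r : Finset α → ℕ} {x : α → ℝ} (hx : InP r x)
    (hr : IsRank r) {i : α} (hi : i ∈ fracSet x) {A : Finset α} (hA : Tight r x A) (hiA : i ∈ A) :
    ∃ j ∈ A, j ≠ i ∧ j ∈ fracSet x := by
  classical
  by_contra hcon
  push Not at hcon
  have hi' := mem_fracSet.mp hi
  have h01 : ∀ l ∈ A.erase i, x l = if x l = 1 then (1 : ℝ) else 0 := by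
    intro l hl
    have h3 := Finset.mem_erase.mp hl
    have h4 := hcon l h3.2 h3.1
    rw [mem_fracSet] at h4
    by_cases h5 : x l = 1
    · simp [h5]
    · simp only [h5, if_false]
      have h6 := hx.1 l
      have h7 := le_one_of_inP hr hx l
      by_contra h8
      exact h4 ⟨lt_of_le_of_ne h6 (Ne.symm h8), lt_of_le_of_ne h7 h5⟩
  have hsum : ∑ l ∈ A.erase i, x l = (((A.erase i).filter (fun l => x l = 1)).card : ℝ) := by
    rw [Finset.sum_congr rfl h01, Finset.sum_boole]
  have hsplit := Finset.add_sum_erase A x hiA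
  unfold Tight at hA
  rw [hsum] at hsplit
  have h1 : (((A.erase i).filter (fun l => x l = 1)).card : ℝ) < (r A : ℝ) := by linarith
  have h2 : (r A : ℝ) < (((A.erase i).filter (fun l => x l = 1)).card : ℝ) + 1 := by linarith
  have h1' : ((A.erase i).filter (fun l => x l = 1)).card < r A := by exact_mod_cast h1
  have h2' : r A < ((A.erase i).filter (fun l => x l = 1)).card + 1 := by exact_mod_cast h2
  omega

theorem exists_good_aux {r : Finset α → ℕ} (hr : IsRank r) :
    ∀ (n : ℕ) (x : α → ℝ), InP r x → weight r x = n → ∃ μ, Good r x μ := by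
  classical
  intro n
  induction n using Nat.strong_induction_on with
  | _ n ih =>
    intro x hx hn
    by_cases hfr : (fracSet x).Nonempty
    · obtain ⟨i, hi, himin⟩ :=
        Finset.exists_min_image (fracSet x) (fun l => (minTight r x l).card) hfr
      have hi' := mem_fracSet.mp hi
      obtain ⟨j, hjm, hji, hj⟩ :=
        exists_frac_partner hx hr hi (tight_minTight hr hx i) (mem_minTight i)
      have hj' := mem_fracSet.mp hj
      have hij : i ≠ j := fun h => hji h.symm
      have hsub : minTight r x j ⊆ minTight r x i :=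
        minTight_subset (tight_minTight hr hx i) hjm
      have heq : minTight r x j = minTight r x i :=
        Finset.eq_of_subset_of_card_le hsub (himin j hj)
      have hT1 : ∀ A : Finset α, Tight r x A → i ∈ A → j ∈ A :=
        fun A hA hiA => (minTight_subset hA hiA) hjm
      have hT2 : ∀ A : Finset α, Tight r x A → j ∈ A → i ∈ A := by
        intro A hA hjA
        have h3 := minTight_subset hA hjA
        rw [heq] at h3
        exact h3 (mem_minTight i)
      obtain ⟨ε₁, hε₁, hP₁, hend₁⟩ := exists_max_move hx hij hT1 hj'.1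
      obtain ⟨ε₂, hε₂, hP₂, hend₂⟩ := exists_max_move hx hij.symm hT2 hi'.1
      have hx₁ := hP₁ ε₁ hε₁.le le_rfl
      have hx₂ := hP₂ ε₂ hε₂.le le_rfl
      have hw₁ : weight r (move x i j ε₁) < n := hn ▸ weight_move_lt hi hj hT1 hT2 hend₁
      have hw₂ : weight r (move x j i ε₂) < n := hn ▸ weight_move_lt hj hi hT2 hT1 hend₂
      obtain ⟨μ₁, hμ₁⟩ := ih _ hw₁ _ hx₁ rfl
      obtain ⟨μ₂, hμ₂⟩ := ih _ hw₂ _ hx₂ rfl
      have hpos : 0 < ε₁ + ε₂ := by linarith
      refine ⟨fun B => (ε₂ * μ₁ B + ε₁ * μ₂ B) / (ε₁ + ε₂), ?_, ?_, ?_, ?_⟩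
      · intro B
        have h3 := hμ₁.1 B
        have h4 := hμ₂.1 B
        positivity
      · rw [← Finset.sum_div, Finset.sum_add_distrib, ← Finset.mul_sum, ← Finset.mul_sum,
          hμ₁.2.1, hμ₂.2.1]
        field_simp
        ring
      · intro B hB
        by_cases h3 : μ₁ B = 0
        · by_cases h4 : μ₂ B = 0
          · exfalso
            apply hB
            simp [h3, h4]
          · exact hμ₂.2.2.1 B h4
        · exact hμ₁.2.2.1 B h3
      · intro S
        rw [← Finset.sum_div, Finset.sum_add_distrib, ← Finset.mul_sum, ← Finset.mul_sum,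
          div_le_iff₀ hpos]
        have h3 := hμ₁.2.2.2 S
        have h4 := hμ₂.2.2.2 S
        have h5 := prod_combine hx.1 hij hε₁.le hε₂.le S
        have h6 := mul_le_mul_of_nonneg_left h3 hε₂.le
        have h7 := mul_le_mul_of_nonneg_left h4 hε₁.le
        linarith
    · apply good_of_integral hr hx
      intro l
      by_contra hcon
      push Not at hcon
      apply hfr
      refine ⟨l, mem_fracSet.mpr ⟨lt_of_le_of_ne (hx.1 l) (Ne.symm hcon.1),
        lt_of_le_of_ne (le_one_of_inP hr hx l) hcon.2⟩⟩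

/-- Every point of the base polytope is dominated by a probability vector on full-rank sets. -/
theorem exists_good {r : Finset α → ℕ} (hr : IsRank r) {x : α → ℝ} (hx : InP r x) :
    ∃ μ, Good r x μ :=
  exists_good_aux hr _ x hx rfl

end Vale.Agent.Lib.P034.helper6.Mat
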