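import Mathlib

/-!
# Base polytope of a rank function: tight sets and elementary moves
-/

namespace Vale.Agent.Lib.P034.helper6.Mat

open Finset

variable {α : Type*} [Fintype α] [DecidableEq α]

/-- The defining properties of a matroid rank function on the subsets of a finite type. -/
structure IsRank (r : Finset α → ℕ) : Prop where
  empty : r ∅ = 0
  mono : ∀ A B, A ⊆ B → r A ≤ r B
  le_card : ∀ A, r A ≤ A.card
  submod : ∀ A B, r (A ∪ B) + r (A ∩ B) ≤ r A + r B

/-- The base polytope of `r`. -/
def InP (r : Finset α → ℕ) (x : α → ℝ) : Prop :=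
  (∀ i, 0 ≤ x i) ∧ (∀ A : Finset α, ∑ i ∈ A, x i ≤ r A) ∧ ∑ i, x i = r univ

/-- A set whose constraint holds with equality. -/
def Tight (r : Finset α → ℕ) (x : α → ℝ) (A : Finset α) : Prop := ∑ i ∈ A, x i = r A

theorem tight_univ {r : Finset α → ℕ} {x : α → ℝ} (hx : InP r x) : Tight r x univ := hx.2.2

theorem tight_empty {r : Finset α → ℕ} (hr : IsRank r) (x : α → ℝ) : Tight r x ∅ := by
  unfold Tight
  simp [hr.empty]

theorem tight_union_inter {r : Finset α → ℕ} (hr : IsRank r) {x : α → ℝ} (hx : InP r x)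
    {A B : Finset α} (hA : Tight r x A) (hB : Tight r x B) :
    Tight r x (A ∪ B) ∧ Tight r x (A ∩ B) := by
  have h1 := Finset.sum_union_inter (s₁ := A) (s₂ := B) (f := x)
  have h2 := hx.2.1 (A ∪ B)
  have h3 := hx.2.1 (A ∩ B)
  have h4 : ((r (A ∪ B) + r (A ∩ B) : ℕ) : ℝ) ≤ ((r A + r B : ℕ) : ℝ) := by
    exact_mod_cast hr.submod A B
  push_cast at h4
  unfold Tight at *
  constructor <;> linarith

theorem le_one_of_inP {r : Finset α → ℕ} (hr : IsRank r) {x : α → ℝ} (hx : InP r x) (i : α) :
    x i ≤ 1 := by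
  have h1 := hx.2.1 {i}
  have h2 : r {i} ≤ 1 := by simpa using hr.le_card {i}
  have h3 : (r {i} : ℝ) ≤ 1 := by exact_mod_cast h2
  simp at h1
  linarith

open Classical in
/-- The smallest tight set containing `i`. -/
noncomputable def minTight (r : Finset α → ℕ) (x : α → ℝ) (i : α) : Finset α :=
  (univ.filter (fun A : Finset α => Tight r x A ∧ i ∈ A)).inf id

theorem minTight_subset {r : Finset α → ℕ} {x : α → ℝ} {i : α} {A : Finset α}
    (hA : Tight r x A) (hi : i ∈ A) : minTight r x i ⊆ A := by
  classical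
  unfold minTight
  have : A ∈ univ.filter (fun A : Finset α => Tight r x A ∧ i ∈ A) := by simp [hA, hi]
  exact Finset.inf_le (f := id) this

theorem mem_minTight {r : Finset α → ℕ} {x : α → ℝ} (i : α) : i ∈ minTight r x i := by
  classical
  unfold minTight
  rw [Finset.mem_inf]
  intro A hA
  simp at hA
  exact hA.2

theorem tight_minTight {r : Finset α → ℕ} (hr : IsRank r) {x : α → ℝ} (hx : InP r x) (i : α) :
    Tight r x (minTight r x i) := by
  classical
  unfold minTight
  refine Finset.inf_induction (p := fun A : Finset α => Tight r x A) ?_ ?_ ?_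
  · exact tight_univ hx
  · intro A hA B hB
    exact (tight_union_inter hr hx hA hB).2
  · intro A hA
    simp at hA
    exact hA.1

/-- Move mass `ε` from coordinate `j` to coordinate `i`. -/
noncomputable def move (x : α → ℝ) (i j : α) (ε : ℝ) : α → ℝ :=
  fun l => x l + (if l = i then ε else 0) - (if l = j then ε else 0)

theorem move_self (x : α → ℝ) {i j : α} (hij : i ≠ j) (ε : ℝ) : move x i j ε i = x i + ε := by
  unfold move
  simp [hij]

theorem move_other (x : α → ℝ) {i j : α} (hij : i ≠ j) (ε : ℝ) : move x i j ε j = x j - ε := by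
  unfold move
  simp [hij.symm]

theorem move_ne (x : α → ℝ) (i j : α) (ε : ℝ) {l : α} (hi : l ≠ i) (hj : l ≠ j) :
    move x i j ε l = x l := by
  unfold move
  simp [hi, hj]

theorem sum_move (x : α → ℝ) (i j : α) (ε : ℝ) (A : Finset α) :
    ∑ l ∈ A, move x i j ε l
      = ∑ l ∈ A, x l + (if i ∈ A then ε else 0) - (if j ∈ A then ε else 0) := by
  unfold move
  rw [Finset.sum_sub_distrib, Finset.sum_add_distrib]
  simp [Finset.sum_ite_eq']

/-- If every tight set containing `i` also contains `j` and `x j > 0`, mass can be moved from `j`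
to `i` up to a maximal amount, at which either `x j` vanishes or a new set becomes tight. -/
theorem exists_max_move {r : Finset α → ℕ} {x : α → ℝ} (hx : InP r x) {i j : α}
    (hij : i ≠ j) (hT : ∀ A : Finset α, Tight r x A → i ∈ A → j ∈ A) (hj : 0 < x j) :
    ∃ ε : ℝ, 0 < ε ∧ (∀ ε' : ℝ, 0 ≤ ε' → ε' ≤ ε → InP r (move x i j ε')) ∧
      (move x i j ε j = 0 ∨ ∃ A : Finset α, i ∈ A ∧ j ∉ A ∧ Tight r (move x i j ε) A) := by
  classical
  set 𝒜 : Finset (Finset α) := univ.filter (fun A : Finset α => i ∈ A ∧ j ∉ A) with h𝒜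
  have hne : 𝒜.Nonempty := ⟨{i}, by simp [h𝒜, hij.symm]⟩
  set sl : Finset α → ℝ := fun A => (r A : ℝ) - ∑ l ∈ A, x l with hsl
  set s : ℝ := 𝒜.inf' hne sl with hs
  have hspos : 0 < s := by
    rw [hs, Finset.lt_inf'_iff]
    intro A hA
    simp [h𝒜] at hA
    have h1 := hx.2.1 A
    have h2 : ∑ l ∈ A, x l ≠ r A := fun h => hA.2 (hT A h hA.1)
    have h3 : ∑ l ∈ A, x l < r A := lt_of_le_of_ne h1 h2
    simp only [hsl]
    linarith
  refine ⟨min (x j) s, lt_min hj hspos, ?_, ?_⟩
  · intro ε' h0 hle
    have hle1 : ε' ≤ x j := hle.trans (min_le_left _ _)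
    have hle2 : ε' ≤ s := hle.trans (min_le_right _ _)
    refine ⟨?_, ?_, ?_⟩
    · intro l
      by_cases hl : l = j
      · subst hl
        rw [move_other x hij]
        linarith
      · by_cases hl' : l = i
        · subst hl'
          rw [move_self x hij]
          have := hx.1 l
          linarith
        · rw [move_ne x i j ε' hl' hl]
          exact hx.1 l
    · intro A
      rw [sum_move]
      have hA := hx.2.1 A
      by_cases hiA : i ∈ A <;> by_cases hjA : j ∈ A
      · simp [hiA, hjA]; linarith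
      · simp only [hiA, hjA, if_true, if_false]
        have hmem : A ∈ 𝒜 := by simp [h𝒜, hiA, hjA]
        have h5 : s ≤ sl A := Finset.inf'_le sl hmem
        simp only [hsl] at h5
        linarith
      · simp only [hiA, hjA, if_true, if_false]
        linarith
      · simp [hiA, hjA]; linarith
    · rw [sum_move]
      simp
      exact hx.2.2
  · rcases le_total (x j) s with h | h
    · left
      rw [move_other x hij, min_eq_left h]
      ring
    · right
      rw [min_eq_right h]
      obtain ⟨A, hA, hAs⟩ := Finset.exists_mem_eq_inf' hne sl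
      have hA' : i ∈ A ∧ j ∉ A := by simpa [h𝒜] using hA
      refine ⟨A, hA'.1, hA'.2, ?_⟩
      unfold Tight
      rw [sum_move]
      simp only [hA'.1, hA'.2, if_true, if_false]
      rw [hs, hAs]
      simp only [hsl]
      ring

end Vale.Agent.Lib.P034.helper6.Mat
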